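import Vale.Agent.Lib.P309.Kz.LogTwo

namespace Vale.Agent.Results.P309.HorizonLogForm

open Vale.Agent.Lib.P309
open MeasureTheory ProbabilityTheory
open scoped ENNReal

/-- The least horizon in the noiseless model, in logarithmic form: for every dimension `d ≥ 2`
and every accuracy `0 < ε ≤ 2^(-576)`,

1. if `M + 3 d ≤ (d - 1) log₂ (1/ε)`, no learner with `M` bits succeeds with probability `2/3`,
   whatever the horizon;
2. if `4 M ≤ d^2`, every learner with `M` bits and horizon `T` that succeeds with probability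
   at least `2/3` has `d log (1/ε) ≤ 10000 T` (natural logarithm): the statement of Q1 with
   `c = 1/4` and `c' = 1/10000`;
3. if `M ≥ d (log₂ (1/ε) + 2 log₂ d + 8)` and `T ≥ 2 d (log₂ (1/ε) + 6)`, some learner with `M`
   bits and horizon `T` succeeds with probability at least `2/3` (a quantized Kaczmarz
   iteration).

Hence, for `d (log₂ (1/ε) + 2 log₂ d + 8) ≤ M ≤ d^2 / 4`, the least horizon is between
`d log (1/ε) / 10000` and `2 d (log₂ (1/ε) + 6) + 1`. -/
theorem result (d M T : ℕ) (ε : ℝ) (hd : 2 ≤ d) (hε0 : 0 < ε) (hε : ε ≤ (1 / 2) ^ 576) :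
    ((M : ℝ) + 3 * (d : ℝ) ≤ ((d : ℝ) - 1) * Real.logb 2 (1 / ε) →
      ∀ L : Learner d M, L.successProb T ε < ENNReal.ofReal (2 / 3)) ∧
    (4 * M ≤ d ^ 2 → ∀ L : Learner d M, ENNReal.ofReal (2 / 3) ≤ L.successProb T ε →
      (d : ℝ) * Real.log (1 / ε) ≤ 10000 * (T : ℝ)) ∧
    ((d : ℝ) * (Real.logb 2 (1 / ε) + 2 * Real.logb 2 (d : ℝ) + 8) ≤ (M : ℝ) →
      2 * (d : ℝ) * (Real.logb 2 (1 / ε) + 6) ≤ (T : ℝ) →
      ∃ L : Learner d M, ENNReal.ofReal (2 / 3) ≤ L.successProb T ε) :=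
  kz_two_sided_log d M T ε hd hε0 hε

end Vale.Agent.Results.P309.HorizonLogForm
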