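import Vale.Agent.Lib.P309.Lin.Final

namespace Vale.Agent.Results.P309.LinearSampleBound

open Vale.Agent.Lib.P309
open MeasureTheory ProbabilityTheory
open scoped ENNReal

/-- First-order sample rate with quadratic memory, in the noiseless model: the question Q1.
Let `d ≥ 2`, `M + 3 ≤ d^2` and `b ≥ 576`.  No learner with `M` bits of memory and horizon
`T ≤ b d / 10000` outputs a point within angle `ε ≤ 2^(-b)` of the uniform signal with
probability `2/3`.  Hence with `M ≤ d^2 - 3` bits every accuracy `ε ≤ 2^(-576)` needs more than
`d ⌊log₂ (1/ε)⌋ / 10000` samples: `T ≥ c' d log (1/ε)` with an absolute `c'`, for all small `ε`
and all `d ≥ 2`.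

The proof is a backward induction over stages of `⌊d/4⌋` rows on the radial profile of the
decoding probability of a memory content over all round subspheres of the unit sphere (average
over a subsphere of radius `r` at most `A / r^D + τ`).  In a random orthonormal frame adapted
to the rows of a stage, the labels only see the first coordinates of the signal and its norm;
the direction of the remaining coordinates is resampled, and an `N`-th moment and a union bound
over the memory contents are taken.  The `N` resampled points are integrated one at a time:
given the previous points, the new point is, up to scaling, a standard Gaussian vector shifted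
by an independent Gaussian vector of the span of the previous points, so its law is a mixture
of uniform laws on round subspheres of codimension one around directions of that span, on which
the profile applies.  A stage thus costs two dimensions and a factor `2^(O(d) + M/N)` with
`N = ⌊d/8⌋`, so that `Ω(d)` stages are available and each of them gains only `O(1 + M/d^2)` bits
of accuracy.  For accuracies beyond the reach of the recursion the output-precision count
(`2^M` caps of angular radius `ε`) excludes success. -/
theorem result (d M b T : ℕ) (ε : ℝ) (hd : 2 ≤ d) (hM : M + 3 ≤ d ^ 2) (hb : 576 ≤ b)
    (hT : 10000 * T ≤ b * d) (hε0 : 0 < ε) (hε : ε ≤ (1 / 2) ^ b) (L : Learner d M) :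
    L.successProb T ε < ENNReal.ofReal (2 / 3) :=
  lin_q1 d M b T ε hd hM hb hT hε0 hε L

end Vale.Agent.Results.P309.LinearSampleBound
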