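import Vale.Agent.Lib.P309.Lin.Final

namespace Vale.Agent.Results.P309.LinearTradeoff

open Vale.Agent.Lib.P309
open MeasureTheory ProbabilityTheory
open scoped ENNReal

/-- Memory-sample-precision tradeoff in the noiseless model, linear in the number of samples.
Let `d ≥ 2`, `J ≥ 1` and let the accuracy `ε ≤ 2^(-b)` satisfy
`512 J (M + 3) + 64 J d^2 ≤ b d^2`.  No learner with `M` bits of memory and horizon
`T ≤ J ⌊d/4⌋` outputs a point within angle `ε` of the uniform signal with probability `2/3`.
So success at accuracy `2^(-b)` with `J ⌊d/4⌋` samples forces `b < J (64 + 512 (M + 3) / d^2)`: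
the number of samples is at least of the order of `d log (1/ε) / (1 + M / d^2)`, which for
`M ≤ c d^2` is the first-order rate `d log (1/ε)` of the Kaczmarz iteration, and for larger
memory decreases at most inversely proportionally to `M / d^2`.

The proof is the backward induction on radial profiles over round subspheres, with the
`N`-point moment bound without loss of dimension (mixture of codimension-one subspheres around
directions of the span of the previous points), for `16 J ≤ d`; for `d < 16 J` the hypothesis
forces `M + 2 d + 1 ≤ b (d - 1)`, where the output-precision count excludes success. -/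
theorem result (d M J b T : ℕ) (ε : ℝ) (hd : 2 ≤ d) (hJ : 1 ≤ J)
    (hb : 512 * J * (M + 3) + 64 * J * d ^ 2 ≤ b * d ^ 2) (hT : T ≤ J * (d / 4))
    (hε0 : 0 < ε) (hε : ε ≤ (1 / 2) ^ b) (L : Learner d M) :
    L.successProb T ε < ENNReal.ofReal (2 / 3) :=
  lin_general d M J b T ε hd hJ hb hT hε0 hε L

end Vale.Agent.Results.P309.LinearTradeoff
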