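import Vale.Agent.Lib.P309.Kz.Two

namespace Vale.Agent.Results.P309.TwoSidedHorizon

open Vale.Agent.Lib.P309
open MeasureTheory ProbabilityTheory
open scoped ENNReal

/-- Two-sided description of the least horizon in the noiseless model, at accuracy `2^(-b)` with
`b ≥ 576`, in every dimension `d ≥ 2`.

Lower bounds: for every accuracy `0 < ε ≤ 2^(-b)`, every horizon `T` and every learner with
`M` bits, the success probability is below `2/3`
* if `M + 2 d + 1 ≤ b (d - 1)`, whatever the horizon (the `2^M` outputs cannot reach the
  precision), or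
* if `M + 3 ≤ d^2` and `10000 T ≤ b d` (first-order rate at quadratic memory), or
* if `512 J (M + 3) + 64 J d^2 ≤ b d^2` and `T ≤ J ⌊d/4⌋` for some `J ≥ 1` (memory above `d^2`).

Upper bound: for every accuracy `ε ≥ 2^(-b)`, if `M ≥ d (b + 2 ⌈log₂ d⌉ + 5)` then for every
horizon `T ≥ 2 d (b + 5)` some learner with `M` bits succeeds with probability at least `2/3`.

So for `d (b + 2 ⌈log₂ d⌉ + 5) ≤ M ≤ d^2 - 3` the least horizon at accuracy `2^(-b)` lies
between `b d / 10000` and `2 d (b + 5)`, and for `M ≤ b (d - 1) - 2 d - 1` it is infinite.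

The lower bounds are those of the radial profile recursion (two dimensions lost per stage).
The learner of the upper bound is a quantized Kaczmarz iteration: the state is the code of a
vector of the closed unit ball on a grid with `b + 2 ⌈log₂ d⌉ + 5` bits per coordinate; each
pair is used for one Kaczmarz projection, followed by the projection onto the unit ball and the
rounding to the grid; the output is the direction of the final vector.  With exact labels one
projection removes from the error its component along the row, whose mean square is a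
fraction `1/d` of the squared error, so the mean distance to the signal contracts by
`1 - 1/(2d)` per step up to the rounding error, and the Markov inequality concludes. -/
theorem result (d M b : ℕ) (ε : ℝ) (hd : 2 ≤ d) (hb : 576 ≤ b) :
    (0 < ε → ε ≤ (1 / 2) ^ b → ∀ (T : ℕ) (L : Learner d M),
      (M + 2 * d + 1 ≤ b * (d - 1) → L.successProb T ε < ENNReal.ofReal (2 / 3)) ∧
      (M + 3 ≤ d ^ 2 → 10000 * T ≤ b * d → L.successProb T ε < ENNReal.ofReal (2 / 3)) ∧
      (∀ J : ℕ, 1 ≤ J → 512 * J * (M + 3) + 64 * J * d ^ 2 ≤ b * d ^ 2 → T ≤ J * (d / 4) →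
        L.successProb T ε < ENNReal.ofReal (2 / 3))) ∧
    ((1 / 2) ^ b ≤ ε → d * (b + 2 * Nat.clog 2 d + 5) ≤ M → ∀ T : ℕ, 2 * d * (b + 5) ≤ T →
      ∃ L : Learner d M, ENNReal.ofReal (2 / 3) ≤ L.successProb T ε) :=
  kz_two_sided d M b ε hd hb

end Vale.Agent.Results.P309.TwoSidedHorizon
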